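import Vale.Agent.P245.Defs

/-! P245, from quasi-concave functions to functions with `D² log f² ≤ M` (helper177, idea helper103) -/

open MeasureTheory Set Filter Topology
open scoped ENNReal ContDiff

namespace Vale.Agent.P245.H177

/-- the three Gaussian integrands -/
theorem q0_int : Integrable (fun u : ℝ => Real.exp (-u ^ 2 / 2)) := by
  have h := integrable_exp_neg_mul_sq (b := 1 / 2) (by norm_num)
  refine h.congr (Eventually.of_forall fun u => ?_)
  simp only
  congr 1
  ring

theorem q1_int : Integrable (fun u : ℝ => u * Real.exp (-u ^ 2 / 2)) := by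
  have h := integrable_mul_exp_neg_mul_sq (b := 1 / 2) (by norm_num)
  refine h.congr (Eventually.of_forall fun u => ?_)
  simp only
  congr 2
  ring

theorem q2_int : Integrable (fun u : ℝ => u ^ 2 * Real.exp (-u ^ 2 / 2)) := by
  have h := integrable_rpow_mul_exp_neg_mul_sq (b := 1 / 2) (by norm_num) (s := 2) (by norm_num)
  refine h.congr (Eventually.of_forall fun u => ?_)
  simp only
  rw [Real.rpow_two]
  congr 2
  ring

theorem q0_val : ∫ u : ℝ, Real.exp (-u ^ 2 / 2) = √(2 * Real.pi) := by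
  have h := integral_gaussian (1 / 2)
  rw [show Real.pi / (1 / 2) = 2 * Real.pi by ring] at h
  rw [← h]
  congr 1
  funext u
  congr 1
  ring

theorem q1_val : ∫ u : ℝ, u * Real.exp (-u ^ 2 / 2) = 0 := by
  refine integral_eq_zero_of_hasDerivAt_of_integrable (f := fun u : ℝ => -Real.exp (-u ^ 2 / 2))
    (fun u => ?_) q1_int q0_int.neg
  have h1 : HasDerivAt (fun u : ℝ => -u ^ 2 / 2) (-u) u := by
    have := ((hasDerivAt_id u).pow 2).neg.div_const 2
    refine this.congr_deriv ?_
    simp
    try ring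
  have h2 := h1.exp.neg
  refine h2.congr_deriv ?_
  ring

theorem q2_val : ∫ u : ℝ, u ^ 2 * Real.exp (-u ^ 2 / 2) = √(2 * Real.pi) := by
  have h0 : ∫ u : ℝ, (Real.exp (-u ^ 2 / 2) - u ^ 2 * Real.exp (-u ^ 2 / 2)) = 0 := by
    refine integral_eq_zero_of_hasDerivAt_of_integrable
      (f := fun u : ℝ => u * Real.exp (-u ^ 2 / 2)) (fun u => ?_) (q0_int.sub q2_int) q1_int
    have h1 : HasDerivAt (fun u : ℝ => -u ^ 2 / 2) (-u) u := by
      have := ((hasDerivAt_id u).pow 2).neg.div_const 2
      refine this.congr_deriv ?_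
      simp
      try ring
    have h2 := (hasDerivAt_id u).mul h1.exp
    refine h2.congr_deriv ?_
    simp
    try ring
  rw [integral_sub q0_int q2_int, q0_val] at h0
  linarith

theorem int3 {α : Type*} [MeasurableSpace α] {ν : Measure α} {a b c : α → ℝ} (ha : Integrable a ν)
    (hb : Integrable b ν) (hc : Integrable c ν) :
    ∫ x, (a x + b x - c x) ∂ν = (∫ x, a x ∂ν) + (∫ x, b x ∂ν) - ∫ x, c x ∂ν := by
  rw [integral_sub (f := fun x => a x + b x) (ha.add hb) hc, integral_add ha hb]

theorem int4 {α : Type*} [MeasurableSpace α] {ν : Measure α} {a b c d : α → ℝ}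
    (ha : Integrable a ν) (hb : Integrable b ν) (hc : Integrable c ν) (hd : Integrable d ν) :
    ∫ x, (a x + b x + c x + d x) ∂ν =
      (∫ x, a x ∂ν) + (∫ x, b x ∂ν) + (∫ x, c x ∂ν) + ∫ x, d x ∂ν := by
  rw [integral_add (f := fun x => a x + b x + c x) ((ha.add hb).add hc) hd,
    integral_add (f := fun x => a x + b x) (ha.add hb) hc, integral_add ha hb]

section fub

variable {n : ℕ} (μ : Measure (EuclideanSpace ℝ (Fin n))) [IsProbabilityMeasure μ]

theorem prod_integrable {h : EuclideanSpace ℝ (Fin n) → ℝ} {q : ℝ → ℝ} (hh : Integrable h μ)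
    (hhc : Continuous h) (hq : Integrable q) (hqc : Continuous q)
    (b : EuclideanSpace ℝ (Fin n)) :
    Integrable (fun p : ℝ × EuclideanSpace ℝ (Fin n) => h p.2 * q (p.1 - inner ℝ b p.2))
      ((volume : Measure ℝ).prod μ) := by
  have hmeas : Continuous (fun p : ℝ × EuclideanSpace ℝ (Fin n) =>
      h p.2 * q (p.1 - inner ℝ b p.2)) := by fun_prop
  rw [integrable_prod_iff' hmeas.aestronglyMeasurable]
  constructor
  · exact Eventually.of_forall fun x => (hq.comp_sub_right (inner ℝ b x)).const_mul (h x)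
  · have e : ∀ x : EuclideanSpace ℝ (Fin n),
        ∫ y : ℝ, ‖h x * q (y - inner ℝ b x)‖ = ‖h x‖ * ∫ y : ℝ, ‖q y‖ := by
      intro x
      have h1 : ∀ y : ℝ, ‖h x * q (y - inner ℝ b x)‖ = ‖h x‖ * ‖q (y - inner ℝ b x)‖ :=
        fun y => norm_mul _ _
      simp_rw [h1]
      rw [integral_const_mul]
      congr 1
      exact integral_sub_right_eq_self (fun y => ‖q y‖) (inner ℝ b x)
    simp_rw [e]
    exact hh.norm.mul_const _

theorem prod_val {h : EuclideanSpace ℝ (Fin n) → ℝ} {q : ℝ → ℝ} (hh : Integrable h μ)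
    (hhc : Continuous h) (hq : Integrable q) (hqc : Continuous q)
    (b : EuclideanSpace ℝ (Fin n)) :
    ∫ y : ℝ, ∫ x, h x * q (y - inner ℝ b x) ∂μ = (∫ x, h x ∂μ) * ∫ u, q u := by
  have hI := prod_integrable μ hh hhc hq hqc b
  rw [integral_integral_swap (f := fun (y : ℝ) x => h x * q (y - inner ℝ b x)) hI]
  rw [← integral_mul_const]
  congr 1
  funext x
  rw [integral_const_mul]
  congr 1
  exact integral_sub_right_eq_self q (inner ℝ b x)

theorem prod_fst {h : EuclideanSpace ℝ (Fin n) → ℝ} {q : ℝ → ℝ} (hh : Integrable h μ)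
    (hhc : Continuous h) (hq : Integrable q) (hqc : Continuous q)
    (b : EuclideanSpace ℝ (Fin n)) :
    Integrable (fun y : ℝ => ∫ x, h x * q (y - inner ℝ b x) ∂μ) :=
  (prod_integrable μ hh hhc hq hqc b).integral_prod_left

end fub

section grad

variable {n : ℕ}

theorem grad_mul {f : EuclideanSpace ℝ (Fin n) → ℝ} (hf : ContDiff ℝ ∞ f)
    (b : EuclideanSpace ℝ (Fin n)) (y : ℝ) (x : EuclideanSpace ℝ (Fin n)) :
    gradient (fun x => f x * Real.exp (-(y - inner ℝ b x) ^ 2 / 4)) x =
      Real.exp (-(y - inner ℝ b x) ^ 2 / 4) •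
        (gradient f x + (f x * (y - inner ℝ b x) / 2) • b) := by
  have hfd : HasFDerivAt f (fderiv ℝ f x) x :=
    (hf.differentiable (by simp)).differentiableAt.hasFDerivAt
  have hin : HasFDerivAt (fun x : EuclideanSpace ℝ (Fin n) => inner ℝ b x) (innerSL ℝ b) x :=
    (innerSL ℝ b).hasFDerivAt
  have hs : HasFDerivAt (fun x : EuclideanSpace ℝ (Fin n) => -(y - inner ℝ b x) ^ 2 / 4)
      (((y - inner ℝ b x) / 2) • innerSL ℝ b) x := by
    have h1 := (((hasFDerivAt_const y x).sub hin).pow 2).neg.mul_const (1 / 4)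
    refine (h1.congr_fderiv ?_).congr_of_eventuallyEq ?_
    · ext v
      simp
      ring
    · exact Eventually.of_forall fun z => by simp; ring
  have he := hs.exp
  have hprod := hfd.mul he
  have hg : HasGradientAt (fun x => f x * Real.exp (-(y - inner ℝ b x) ^ 2 / 4))
      (Real.exp (-(y - inner ℝ b x) ^ 2 / 4) •
        (gradient f x + (f x * (y - inner ℝ b x) / 2) • b)) x := by
    rw [hasGradientAt_iff_hasFDerivAt]
    refine hprod.congr_fderiv ?_
    ext v
    have hgf : inner ℝ (gradient f x) v = fderiv ℝ f x v := by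
      rw [gradient, InnerProductSpace.toDual_symm_apply]
    simp only [InnerProductSpace.toDual_apply_apply, inner_smul_left, inner_add_left, hgf]
    simp
    ring
  exact hg.gradient

theorem grad_norm {f : EuclideanSpace ℝ (Fin n) → ℝ} (hf : ContDiff ℝ ∞ f)
    (b : EuclideanSpace ℝ (Fin n)) (y : ℝ) (x : EuclideanSpace ℝ (Fin n)) :
    ‖gradient (fun x => f x * Real.exp (-(y - inner ℝ b x) ^ 2 / 4)) x‖ ^ 2 =
      ‖gradient f x‖ ^ 2 * Real.exp (-(y - inner ℝ b x) ^ 2 / 2) +
      (f x * inner ℝ (gradient f x) b) *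
        ((y - inner ℝ b x) * Real.exp (-(y - inner ℝ b x) ^ 2 / 2)) +
      (‖b‖ ^ 2 / 4 * f x ^ 2) *
        ((y - inner ℝ b x) ^ 2 * Real.exp (-(y - inner ℝ b x) ^ 2 / 2)) := by
  rw [grad_mul hf, norm_smul, mul_pow, norm_add_sq_real, inner_smul_right, norm_smul,
    Real.norm_eq_abs, Real.norm_eq_abs, sq_abs, mul_pow, sq_abs, ← Real.exp_nat_mul]
  rw [show ((2 : ℕ) : ℝ) * (-(y - inner ℝ b x) ^ 2 / 4) = -(y - inner ℝ b x) ^ 2 / 2 by
    push_cast; ring]
  ring

end grad

section step

variable {n : ℕ} (μ : Measure (EuclideanSpace ℝ (Fin n))) [IsProbabilityMeasure μ]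

theorem jensen_pt {A e r : ℝ} (hA : 0 ≤ A) (he : 0 < e) (hr : 0 < r) :
    A * Real.log A * e + A * e * (1 + Real.log r) - A * r ≤ (A * e) * Real.log (A * e) := by
  rcases hA.eq_or_lt with h | h
  · rw [← h]
    simp
  · rw [Real.log_mul h.ne' he.ne']
    have h1 : Real.log (r / e) ≤ r / e - 1 := Real.log_le_sub_one_of_pos (by positivity)
    rw [Real.log_div hr.ne' he.ne'] at h1
    have h2 : e * (Real.log r - Real.log e) ≤ r - e := by
      have := mul_le_mul_of_nonneg_left h1 he.le
      have h3 : e * (r / e - 1) = r - e := by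
        field_simp
      linarith
    nlinarith [mul_le_mul_of_nonneg_left h2 h.le]

theorem step {D T : ℝ} {f : EuclideanSpace ℝ (Fin n) → ℝ} (hD : 0 ≤ D) (hf : ContDiff ℝ ∞ f)
    (hc : HasCompactSupport f) (b : EuclideanSpace ℝ (Fin n))
    (H : ∀ y : ℝ, Entropy μ (fun x => (f x * Real.exp (-(y - inner ℝ b x) ^ 2 / 4)) ^ 2) ≤
      D * ((∫ x, ‖gradient (fun x => f x * Real.exp (-(y - inner ℝ b x) ^ 2 / 4)) x‖ ^ 2 ∂μ) +
        T * ∫ x, (f x * Real.exp (-(y - inner ℝ b x) ^ 2 / 4)) ^ 2 ∂μ)) :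
    Entropy μ (fun x => f x ^ 2) ≤
      D * ((∫ x, ‖gradient f x‖ ^ 2 ∂μ) + (T + ‖b‖ ^ 2 / 4) * ∫ x, f x ^ 2 ∂μ) := by
  have hfc : Continuous f := hf.continuous
  have hgc : Continuous (fun x => gradient f x) := by
    have h1 : Continuous (fderiv ℝ f) := hf.continuous_fderiv (by simp)
    have h2 : (fun x => gradient f x) =
        fun x => (InnerProductSpace.toDual ℝ (EuclideanSpace ℝ (Fin n))).symm (fderiv ℝ f x) := rfl
    rw [h2]
    exact (InnerProductSpace.toDual ℝ (EuclideanSpace ℝ (Fin n))).symm.continuous.comp h1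
  have hgs : HasCompactSupport (fun x => gradient f x) := by
    have h1 : HasCompactSupport (fderiv ℝ f) := hc.fderiv ℝ
    have h2 : (fun x => gradient f x) =
        fun x => (InnerProductSpace.toDual ℝ (EuclideanSpace ℝ (Fin n))).symm (fderiv ℝ f x) := rfl
    rw [h2]
    exact h1.comp_left (map_zero _)
  have cI : ∀ {g : EuclideanSpace ℝ (Fin n) → ℝ}, Continuous g → HasCompactSupport g →
      Integrable g μ := fun hg hgc => hg.integrable_of_hasCompactSupport hgc
  -- the four functions of `x`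
  have cA : Continuous (fun x => f x ^ 2) := by fun_prop
  have sA : HasCompactSupport (fun x => f x ^ 2) := hc.comp_left (g := fun t : ℝ => t ^ 2) (by simp)
  have cL : Continuous (fun x => f x ^ 2 * Real.log (f x ^ 2)) :=
    Real.continuous_mul_log.comp cA
  have sL : HasCompactSupport (fun x => f x ^ 2 * Real.log (f x ^ 2)) :=
    sA.comp_left (g := fun t : ℝ => t * Real.log t) (by simp)
  have cG : Continuous (fun x => ‖gradient f x‖ ^ 2) := hgc.norm.pow 2
  have sG : HasCompactSupport (fun x => ‖gradient f x‖ ^ 2) :=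
    hgs.comp_left (g := fun v : EuclideanSpace ℝ (Fin n) => ‖v‖ ^ 2) (by simp)
  have cX : Continuous (fun x => f x * inner ℝ (gradient f x) b) :=
    hfc.mul (hgc.inner continuous_const)
  have sX : HasCompactSupport (fun x => f x * inner ℝ (gradient f x) b) := hc.mul_right
  have q0c : Continuous (fun u : ℝ => Real.exp (-u ^ 2 / 2)) := by fun_prop
  have q1c : Continuous (fun u : ℝ => u * Real.exp (-u ^ 2 / 2)) := by fun_prop
  have q2c : Continuous (fun u : ℝ => u ^ 2 * Real.exp (-u ^ 2 / 2)) := by fun_prop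
  set F := ∫ x, f x ^ 2 ∂μ with hF
  have hF0 : 0 ≤ F := integral_nonneg fun x => sq_nonneg _
  have hG0 : 0 ≤ ∫ x, ‖gradient f x‖ ^ 2 ∂μ := integral_nonneg fun x => sq_nonneg _
  rcases hF0.eq_or_lt with h0 | hFpos
  · -- `f = 0` a.e.
    have hae : (fun x => f x ^ 2) =ᵐ[μ] 0 :=
      (integral_eq_zero_iff_of_nonneg (fun x => sq_nonneg (f x)) (cI cA sA)).1 (by
        rw [← hF]; exact h0.symm)
    have e1 : ∫ x, f x ^ 2 * Real.log (f x ^ 2) ∂μ = 0 := by
      rw [integral_congr_ae (g := fun _ => (0 : ℝ))]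
      · simp
      · filter_upwards [hae] with x hx
        have : f x ^ 2 = 0 := hx
        rw [this]
        simp
    unfold Entropy
    rw [e1, ← hF, ← h0]
    simp only [zero_mul, sub_zero, mul_zero, add_zero]
    exact mul_nonneg hD hG0
  · set s := √(2 * Real.pi) with hs
    have hspos : 0 < s := Real.sqrt_pos.2 (by positivity)
    set L := ∫ x, f x ^ 2 * Real.log (f x ^ 2) ∂μ with hL
    -- value of the mass at `y`
    have hsq : ∀ (y : ℝ) (x : EuclideanSpace ℝ (Fin n)),
        (f x * Real.exp (-(y - inner ℝ b x) ^ 2 / 4)) ^ 2 =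
          f x ^ 2 * Real.exp (-(y - inner ℝ b x) ^ 2 / 2) := by
      intro y x
      rw [mul_pow, ← Real.exp_nat_mul]
      congr 2
      push_cast
      ring
    have ce : ∀ y : ℝ, Continuous (fun x : EuclideanSpace ℝ (Fin n) =>
        Real.exp (-(y - inner ℝ b x) ^ 2 / 2)) := by
      intro y
      fun_prop
    -- lower bound
    have low : ∀ y : ℝ, (∫ x, (f x ^ 2 * Real.log (f x ^ 2)) *
          Real.exp (-(y - inner ℝ b x) ^ 2 / 2) ∂μ) -
        Real.log F * (∫ x, f x ^ 2 * Real.exp (-(y - inner ℝ b x) ^ 2 / 2) ∂μ) ≤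
        Entropy μ (fun x => (f x * Real.exp (-(y - inner ℝ b x) ^ 2 / 4)) ^ 2) := by
      intro y
      simp_rw [hsq]
      set m := ∫ x, f x ^ 2 * Real.exp (-(y - inner ℝ b x) ^ 2 / 2) ∂μ with hm
      have cm : Continuous (fun x => f x ^ 2 * Real.exp (-(y - inner ℝ b x) ^ 2 / 2)) :=
        cA.mul (ce y)
      have sm : HasCompactSupport (fun x => f x ^ 2 * Real.exp (-(y - inner ℝ b x) ^ 2 / 2)) :=
        sA.mul_right
      have im := cI cm sm
      have hmpos : 0 < m := by
        rw [hm, integral_pos_iff_support_of_nonneg (fun x => by positivity) im]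
        have h2 : 0 < μ (Function.support fun x => f x ^ 2) := by
          rw [← integral_pos_iff_support_of_nonneg (fun x => sq_nonneg (f x)) (cI cA sA)]
          exact hFpos
        have e3 : (Function.support fun x => f x ^ 2 * Real.exp (-(y - inner ℝ b x) ^ 2 / 2)) =
            Function.support fun x => f x ^ 2 := by
          ext x
          simp [Real.exp_ne_zero]
        rw [e3]
        exact h2
      have hr : 0 < m / F := div_pos hmpos hFpos
      have iL : Integrable (fun x => (f x ^ 2 * Real.log (f x ^ 2)) *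
          Real.exp (-(y - inner ℝ b x) ^ 2 / 2)) μ := cI (cL.mul (ce y)) sL.mul_right
      have iE : Integrable (fun x => (f x ^ 2 * Real.exp (-(y - inner ℝ b x) ^ 2 / 2)) *
          Real.log (f x ^ 2 * Real.exp (-(y - inner ℝ b x) ^ 2 / 2))) μ :=
        cI (Real.continuous_mul_log.comp cm)
          (sm.comp_left (g := fun t : ℝ => t * Real.log t) (by simp))
      have hmono : ∫ x, ((f x ^ 2 * Real.log (f x ^ 2)) *
            Real.exp (-(y - inner ℝ b x) ^ 2 / 2) +
          f x ^ 2 * Real.exp (-(y - inner ℝ b x) ^ 2 / 2) * (1 + Real.log (m / F)) -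
          f x ^ 2 * (m / F)) ∂μ ≤
          ∫ x, (f x ^ 2 * Real.exp (-(y - inner ℝ b x) ^ 2 / 2)) *
          Real.log (f x ^ 2 * Real.exp (-(y - inner ℝ b x) ^ 2 / 2)) ∂μ := by
        refine integral_mono ((iL.add (im.mul_const _)).sub ((cI cA sA).mul_const _)) iE
          fun x => ?_
        exact jensen_pt (sq_nonneg (f x)) (Real.exp_pos _) hr
      rw [int3 iL (im.mul_const _) ((cI cA sA).mul_const _), integral_mul_const,
        integral_mul_const, ← hm, ← hF] at hmono
      have e4 : F * (m / F) = m := by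
        field_simp
      rw [e4, Real.log_div hmpos.ne' hFpos.ne'] at hmono
      unfold Entropy
      rw [← hm]
      nlinarith
    -- upper bound
    have up : ∀ y : ℝ, (∫ x, (f x ^ 2 * Real.log (f x ^ 2)) *
          Real.exp (-(y - inner ℝ b x) ^ 2 / 2) ∂μ) -
        Real.log F * (∫ x, f x ^ 2 * Real.exp (-(y - inner ℝ b x) ^ 2 / 2) ∂μ) ≤
        D * (((∫ x, ‖gradient f x‖ ^ 2 * Real.exp (-(y - inner ℝ b x) ^ 2 / 2) ∂μ) +
          (∫ x, (f x * inner ℝ (gradient f x) b) *
            ((y - inner ℝ b x) * Real.exp (-(y - inner ℝ b x) ^ 2 / 2)) ∂μ) +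
          ∫ x, (‖b‖ ^ 2 / 4 * f x ^ 2) *
            ((y - inner ℝ b x) ^ 2 * Real.exp (-(y - inner ℝ b x) ^ 2 / 2)) ∂μ) +
          T * ∫ x, f x ^ 2 * Real.exp (-(y - inner ℝ b x) ^ 2 / 2) ∂μ) := by
      intro y
      refine (low y).trans ((H y).trans (le_of_eq ?_))
      simp_rw [hsq, grad_norm hf]
      congr 2
      rw [integral_add, integral_add]
      · exact cI (cG.mul (ce y)) sG.mul_right
      · exact cI (cX.mul ((continuous_const.sub (by fun_prop)).mul (ce y))) sX.mul_right
      · exact (cI (cG.mul (ce y)) sG.mul_right).add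
          (cI (cX.mul ((continuous_const.sub (by fun_prop)).mul (ce y))) sX.mul_right)
      · exact cI ((continuous_const.mul cA).mul
          (((continuous_const.sub (by fun_prop)).pow 2).mul (ce y)))
          (HasCompactSupport.mul_right sA.mul_left)
    have iA := cI cA sA
    have iL := cI cL sL
    have iG := cI cG sG
    have iX := cI cX sX
    have c4 : Continuous (fun x => ‖b‖ ^ 2 / 4 * f x ^ 2) := continuous_const.mul cA
    have i4 : Integrable (fun x => ‖b‖ ^ 2 / 4 * f x ^ 2) μ := iA.const_mul _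
    have J0 := prod_fst μ iA cA q0_int q0c b
    have JL := prod_fst μ iL cL q0_int q0c b
    have JG := prod_fst μ iG cG q0_int q0c b
    have JX := prod_fst μ iX cX q1_int q1c b
    have J4 := prod_fst μ i4 c4 q2_int q2c b
    have V0 := prod_val μ iA cA q0_int q0c b
    have VL := prod_val μ iL cL q0_int q0c b
    have VG := prod_val μ iG cG q0_int q0c b
    have VX := prod_val μ iX cX q1_int q1c b
    have V4 := prod_val μ i4 c4 q2_int q2c b
    have hmono := integral_mono (JL.sub (J0.const_mul (Real.log F)))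
      ((((JG.add JX).add J4).add (J0.const_mul T)).const_mul D) (fun y => up y)
    simp only [Pi.add_apply, Pi.sub_apply] at hmono
    rw [integral_sub JL (J0.const_mul _), integral_const_mul, integral_const_mul,
      int4 JG JX J4 (J0.const_mul T), integral_const_mul, VL, V0, VG, VX, V4, q0_val, q1_val,
      q2_val, integral_const_mul, ← hF, ← hL, ← hs] at hmono
    unfold Entropy
    rw [← hL, ← hF]
    have h5 : s * (L - F * Real.log F) ≤
        s * (D * ((∫ x, ‖gradient f x‖ ^ 2 ∂μ) + (T + ‖b‖ ^ 2 / 4) * F)) := by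
      nlinarith
    exact le_of_mul_le_mul_left h5 hspos

end step

end Vale.Agent.P245.H177
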