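import Vale.Agent.P245.H177.Semi

/-! P245, log-Sobolev for `D² log f² ≤ Σ b_i ⊗ b_i` from the quasi-concave case (helper177) -/

open MeasureTheory Set Filter Topology
open scoped ENNReal ContDiff

namespace Vale.Agent.P245.H177

theorem smooth_mul {n : ℕ} {f : EuclideanSpace ℝ (Fin n) → ℝ} (hf : ContDiff ℝ ∞ f)
    (b : EuclideanSpace ℝ (Fin n)) (y : ℝ) :
    ContDiff ℝ ∞ (fun x => f x * Real.exp (-(y - inner ℝ b x) ^ 2 / 4)) := by
  have h1 : ContDiff ℝ ∞ (fun x : EuclideanSpace ℝ (Fin n) => inner ℝ b x) :=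
    contDiff_const.inner ℝ contDiff_id
  exact hf.mul ((((contDiff_const.sub h1).pow 2).neg.div_const 4).exp)

theorem semi_aux {n : ℕ} (μ : Measure (EuclideanSpace ℝ (Fin n))) [IsProbabilityMeasure μ]
    {D : ℝ} (hD : 0 ≤ D)
    (hQC : ∀ g : EuclideanSpace ℝ (Fin n) → ℝ, ContDiff ℝ ∞ g → HasCompactSupport g →
      QuasiconcaveOn ℝ univ (fun x => |g x|) →
      Entropy μ (fun x => g x ^ 2) ≤ D * ∫ x, ‖gradient g x‖ ^ 2 ∂μ) :
    ∀ (m : ℕ) (b : Fin m → EuclideanSpace ℝ (Fin n)) (f : EuclideanSpace ℝ (Fin n) → ℝ),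
      ContDiff ℝ ∞ f → HasCompactSupport f →
      (∀ y : Fin m → ℝ, QuasiconcaveOn ℝ univ
        (fun x => |f x| * Real.exp (-(1 / 4) * ∑ i, (y i - inner ℝ (b i) x) ^ 2))) →
      Entropy μ (fun x => f x ^ 2) ≤
        D * ((∫ x, ‖gradient f x‖ ^ 2 ∂μ) + (1 / 4 * ∑ i, ‖b i‖ ^ 2) * ∫ x, f x ^ 2 ∂μ) := by
  intro m
  induction m with
  | zero =>
    intro b f hf hc hq
    have h := hQC f hf hc (by simpa using hq (fun i => 0))
    simpa using h
  | succ m ih =>
    intro b f hf hc hq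
    have h := step μ (T := 1 / 4 * ∑ i : Fin m, ‖b i.succ‖ ^ 2) hD hf hc (b 0) (fun y => ?_)
    · refine h.trans (le_of_eq ?_)
      rw [Fin.sum_univ_succ]
      ring
    · refine ih (fun i => b i.succ) _ (smooth_mul hf (b 0) y) hc.mul_right (fun y' => ?_)
      have h1 := hq (Fin.cons y y')
      refine cast (congrArg _ ?_) h1
      funext x
      rw [Fin.sum_univ_succ, abs_mul, abs_of_pos (Real.exp_pos _), mul_assoc, ← Real.exp_add]
      simp only [Fin.cons_zero, Fin.cons_succ]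
      congr 2
      ring

/-- quasi-concavity from semi-log-concavity -/
theorem quasi_of_concave {n m : ℕ} {f : EuclideanSpace ℝ (Fin n) → ℝ}
    (b : Fin m → EuclideanSpace ℝ (Fin n))
    (hconc : ConcaveOn ℝ {x | f x ≠ 0}
      (fun x => Real.log (f x ^ 2) - 1 / 2 * ∑ i, inner ℝ (b i) x ^ 2)) (y : Fin m → ℝ) :
    QuasiconcaveOn ℝ univ
      (fun x => |f x| * Real.exp (-(1 / 4) * ∑ i, (y i - inner ℝ (b i) x) ^ 2)) := by
  intro r
  rcases le_or_gt r 0 with hr | hr
  · have : {x | x ∈ (univ : Set (EuclideanSpace ℝ (Fin n))) ∧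
        r ≤ |f x| * Real.exp (-(1 / 4) * ∑ i, (y i - inner ℝ (b i) x) ^ 2)} = univ := by
      ext x
      simp only [mem_univ, true_and, mem_setOf_eq, iff_true]
      exact hr.trans (by positivity)
    rw [this]
    exact convex_univ
  · have hset : {x | x ∈ (univ : Set (EuclideanSpace ℝ (Fin n))) ∧
        r ≤ |f x| * Real.exp (-(1 / 4) * ∑ i, (y i - inner ℝ (b i) x) ^ 2)} =
        {x | x ∈ {x | f x ≠ 0} ∧ 2 * Real.log r + 1 / 2 * ∑ i, y i ^ 2 ≤
          (Real.log (f x ^ 2) - 1 / 2 * ∑ i, inner ℝ (b i) x ^ 2) +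
            ∑ i, y i * inner ℝ (b i) x} := by
      ext x
      simp only [mem_univ, true_and, mem_setOf_eq]
      have hkey : ∀ hx : f x ≠ 0,
          (r ≤ |f x| * Real.exp (-(1 / 4) * ∑ i, (y i - inner ℝ (b i) x) ^ 2) ↔
          2 * Real.log r + 1 / 2 * ∑ i, y i ^ 2 ≤
            (Real.log (f x ^ 2) - 1 / 2 * ∑ i, inner ℝ (b i) x ^ 2) +
              ∑ i, y i * inner ℝ (b i) x) := by
        intro hx
        rw [← Real.log_le_log_iff hr (by positivity), Real.log_mul (by positivity) (by positivity),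
          Real.log_exp]
        have e1 : Real.log (f x ^ 2) = 2 * Real.log |f x| := by
          rw [← sq_abs, Real.log_pow]
          push_cast
          ring
        have e2 : ∑ i, (y i - inner ℝ (b i) x) ^ 2 =
            ∑ i, y i ^ 2 - 2 * ∑ i, y i * inner ℝ (b i) x + ∑ i, inner ℝ (b i) x ^ 2 := by
          rw [Finset.mul_sum, ← Finset.sum_sub_distrib, ← Finset.sum_add_distrib]
          refine Finset.sum_congr rfl fun i _ => ?_
          ring
        rw [e1, e2]
        constructor <;> intro h <;> linarith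
      constructor
      · intro h
        have hx : f x ≠ 0 := by
          intro h0
          rw [h0] at h
          simp only [abs_zero, zero_mul] at h
          linarith
        exact ⟨hx, (hkey hx).1 h⟩
      · rintro ⟨hx, h⟩
        exact (hkey hx).2 h
    rw [hset]
    have hlin : ConcaveOn ℝ {x | f x ≠ 0} (fun x => ∑ i, y i * inner ℝ (b i) x) := by
      refine ⟨hconc.1, fun u _ v _ s t _ _ _ => le_of_eq ?_⟩
      simp only [smul_eq_mul, inner_add_right, inner_smul_right, Finset.mul_sum]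
      rw [← Finset.sum_add_distrib]
      refine Finset.sum_congr rfl fun i _ => ?_
      ring
    exact (hconc.add hlin).convex_ge _

theorem semi {n : ℕ} (μ : Measure (EuclideanSpace ℝ (Fin n))) [IsProbabilityMeasure μ]
    {D : ℝ} (hD : 0 ≤ D)
    (hQC : ∀ g : EuclideanSpace ℝ (Fin n) → ℝ, ContDiff ℝ ∞ g → HasCompactSupport g →
      QuasiconcaveOn ℝ univ (fun x => |g x|) →
      Entropy μ (fun x => g x ^ 2) ≤ D * ∫ x, ‖gradient g x‖ ^ 2 ∂μ)
    (m : ℕ) (b : Fin m → EuclideanSpace ℝ (Fin n)) (f : EuclideanSpace ℝ (Fin n) → ℝ)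
    (hf : ContDiff ℝ ∞ f) (hc : HasCompactSupport f)
    (hconc : ConcaveOn ℝ {x | f x ≠ 0}
      (fun x => Real.log (f x ^ 2) - 1 / 2 * ∑ i, inner ℝ (b i) x ^ 2)) :
    Entropy μ (fun x => f x ^ 2) ≤
      D * ((∫ x, ‖gradient f x‖ ^ 2 ∂μ) + (1 / 4 * ∑ i, ‖b i‖ ^ 2) * ∫ x, f x ^ 2 ∂μ) :=
  semi_aux μ hD hQC m b f hf hc (quasi_of_concave b hconc)

end Vale.Agent.P245.H177
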